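import Mathlib
import Vale.Agent.P037.Defs
import Vale.Agent.P037.Syn37.Defs

/-! P037: definition for the scale-free theorem on interleaved slowly varying classes (shown to the judges; keep small). -/

namespace Vale.Agent.P037

open Classical in
/-- every colour that occurs at all occurs at least `q` times among any `g` consecutive rows. -/
def Spread {n : ℕ} (τ : Fin n → ℕ) (g q : ℕ) : Prop :=
  ∀ (a : ℕ) (x : Fin n), a + g ≤ n →
    q ≤ (Finset.univ.filter (fun y : Fin n => a ≤ y.1 ∧ y.1 < a + g ∧ τ y = τ x)).card

end Vale.Agent.P037
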