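import Mathlib
import Vale.Agent.P037.Defs
import Vale.Agent.P037.BlowCount
import Vale.Agent.P037.FewRows
import Vale.Agent.P037.TV
import Vale.Agent.P037.TVAll
import Vale.Agent.P037.Syn37.Defs
import Vale.Agent.P037.Syn37.Core
import Vale.Agent.P037.Spr37.Defs

/-!
# P037 Spr37: scale-free version of Syn37 (helper37).
Every colour occurs at least `q` times among any `g` consecutive rows, `g ≤ M q`.  Same proof as Syn37, but (i) there are at most `M` colours, (ii) in every interval of length `g` of a zone we have `q` different rows of each colour,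
so every kept copy of `B` gives `(z2 q)^k` copies of `A`.
-/

namespace Vale.Agent.P037.Spr37

open Vale.Agent.P037 Vale.Agent.P037.Syn37

open Finset

open scoped Classical

variable {k n : ℕ}

/-- [Q1] a set of cardinality `≥ q ≥ 1` is nonempty (`Finset.card_pos`), unfold the filter. -/
theorem syndetic_of_spread (τ : Fin n → ℕ) (g q : ℕ) (hq : 1 ≤ q) (h : Spread τ g q) : Syndetic τ g := by
  intro a x hag
  have h1 := h a x hag
  have h2 : 0 < (Finset.univ.filter (fun y : Fin n => a ≤ y.1 ∧ y.1 < a + g ∧ τ y = τ x)).card := by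
    omega
  obtain ⟨y, hy⟩ := Finset.card_pos.1 h2
  rw [Finset.mem_filter] at hy
  exact ⟨y, hy.2.1, hy.2.2.1, hy.2.2.2⟩

/-- [Q2] at most `M` colours.  Window `[0, g)`: the sets `S c = univ.filter (fun y => y.1 < g ∧ τ y = c)`, `c ∈ univ.image τ`, are pairwise disjoint subsets of `univ.filter (fun y : Fin n => y.1 < g)` (card `≤ g`: inject into `range g` by `Fin.val`), each of card `≥ q` (`h 0 x`, `0 + g ≤ n`; `simp`).
So `(univ.image τ).card * q ≤ g ≤ M * q` (`Finset.card_eq_sum_card_fiberwise` / `Finset.card_biUnion` / `Finset.sum_le_sum` with `Finset.sum_const`), cancel `q > 0` (`Nat.le_of_mul_le_mul_right`). -/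
theorem card_colours_le' (τ : Fin n → ℕ) (g q M : ℕ) (hq : 1 ≤ q) (hgn : g ≤ n) (hgM : g ≤ M * q)
    (h : Spread τ g q) : (univ.image τ).card ≤ M := by
  set W : Finset (Fin n) := univ.filter (fun y : Fin n => y.1 < g) with hW
  have hWc : W.card ≤ g := by
    have : (W.image Fin.val).card ≤ (range g).card := by
      apply Finset.card_le_card
      intro a ha
      rw [Finset.mem_image] at ha
      obtain ⟨y, hy, rfl⟩ := ha
      rw [hW, Finset.mem_filter] at hy
      exact Finset.mem_range.2 hy.2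
    rw [Finset.card_image_of_injective _ Fin.val_injective, Finset.card_range] at this
    exact this
  have hmaps : ∀ y ∈ W, τ y ∈ (univ.image τ) := fun y _ => Finset.mem_image_of_mem _ (Finset.mem_univ _)
  have hsum := Finset.card_eq_sum_card_fiberwise hmaps
  have hge : ∀ c ∈ (univ.image τ), q ≤ (W.filter (fun y => τ y = c)).card := by
    intro c hc
    rw [Finset.mem_image] at hc
    obtain ⟨x, -, rfl⟩ := hc
    have h0 := h 0 x (by omega)
    refine le_trans h0 (Finset.card_le_card ?_)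
    intro y hy
    rw [Finset.mem_filter] at hy
    rw [Finset.mem_filter, hW, Finset.mem_filter]
    exact ⟨⟨Finset.mem_univ _, by omega⟩, hy.2.2.2⟩
  have h1 : (univ.image τ).card * q ≤ W.card := by
    rw [hsum]
    calc (univ.image τ).card * q = ∑ _c ∈ (univ.image τ), q := by
          rw [Finset.sum_const, smul_eq_mul]
      _ ≤ _ := Finset.sum_le_sum hge
  exact Nat.le_of_mul_le_mul_right (le_trans h1 (le_trans hWc hgM)) (by omega)

/-- [Q3] copy of the proof of `Syn37.card_image_Bm_le` (Syn37/Core.lean, line 278); only the last line of the `calc` changes (`Nat.mul_le_mul_left _ hcol`). -/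
theorem card_image_Bm_le' (τ : Fin n → ℕ) (A : Fin n → Fin n → Bool) (R o z g M : ℕ) (hR : 0 < R)
    (hRn : R ≤ n) (hoz : o + z ≤ R) (hgz : g ≤ z) (hcol : (univ.image τ).card ≤ M)
    (pick : ℕ → ℕ → Fin n → Fin n) (hpick : IsPick n R o z g τ pick) :
    (univ.image (Bm A (Del τ A R o z) pick R)).card ≤ n / R * M := by
  set f : Fin n → ℕ × ℕ := fun x => (blk n R x.1, τ x) with hf
  set B := Bm A (Del τ A R o z) pick R with hB
  let F : ℕ × ℕ → (Fin n → Bool) := fun p => if h : ∃ x, f x = p then B h.choose else fun _ => false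
  have h1 : univ.image B ⊆ (univ.image f).image F := by
    intro w hw
    obtain ⟨x, -, rfl⟩ := mem_image.mp hw
    refine mem_image.mpr ⟨f x, mem_image_of_mem f (mem_univ x), ?_⟩
    have hex : ∃ y, f y = f x := ⟨x, rfl⟩
    have hc := hex.choose_spec
    show (if h : ∃ y, f y = f x then B h.choose else fun _ => false) = B x
    rw [dif_pos hex]
    have h2 : blk n R hex.choose.1 = blk n R x.1 := congrArg Prod.fst hc
    have h3 : τ hex.choose = τ x := congrArg Prod.snd hc
    exact Bm_eq_of τ A R o z g hR hRn hoz hgz pick hpick _ _ h2 h3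
  have h2 : univ.image f ⊆ range (n / R) ×ˢ univ.image τ := by
    intro p hp
    obtain ⟨x, -, rfl⟩ := mem_image.mp hp
    rw [mem_product]
    exact ⟨mem_range.mpr (blk_spec R x.1 hR hRn x.2).1, mem_image_of_mem τ (mem_univ x)⟩
  calc (univ.image B).card ≤ ((univ.image f).image F).card := card_le_card h1
    _ ≤ (univ.image f).card := card_image_le
    _ ≤ (range (n / R) ×ˢ univ.image τ).card := card_le_card h2
    _ = n / R * (univ.image τ).card := by rw [card_product, card_range]
    _ ≤ n / R * M := Nat.mul_le_mul_left _ hcol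

/-- [Q4] `q` different picks.  For `l < n / R`, `(j + 1) * g ≤ z`, `x`: `a = l R + o + j g` satisfies `a + g ≤ n` (as in `Syn37.exists_pick`: `a + g ≤ l R + o + z ≤ (l + 1) R ≤ (n / R) R ≤ n`, `Nat.div_mul_le_self`), so the set `S = univ.filter (fun y => a ≤ y.1 ∧ y.1 < a + g ∧ τ y = τ x)` has `≥ q` elements;
take an injection `Fin q → S` (e.g. `S.orderEmbOfCardLe`, or `Finset.exists_subset_card_eq` + `Finset.equivFin`, or `(S.toList).get`).  Define `pk w l j x` by `Classical.choice`/`dite` (`x` itself when the conditions or `w < q` fail). -/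
theorem exists_picks (τ : Fin n → ℕ) (R o z g q : ℕ) (hoz : o + z ≤ R) (h : Spread τ g q) :
    ∃ pk : ℕ → ℕ → ℕ → Fin n → Fin n, (∀ w, w < q → IsPick n R o z g τ (pk w)) ∧
      ∀ (w w' l j : ℕ) (x : Fin n), w < q → w' < q → l < n / R → (j + 1) * g ≤ z →
        pk w l j x = pk w' l j x → w = w' := by
  have key : ∀ (l j : ℕ) (x : Fin n), ∃ f : ℕ → Fin n, l < n / R → (j + 1) * g ≤ z →
      (∀ w, w < q → l * R + o + j * g ≤ (f w).1 ∧ (f w).1 < l * R + o + j * g + g ∧ τ (f w) = τ x) ∧
      (∀ w w', w < q → w' < q → f w = f w' → w = w') := by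
    intro l j x
    by_cases hc : l < n / R ∧ (j + 1) * g ≤ z
    · obtain ⟨hl, hj⟩ := hc
      have h1 : (l + 1) * R ≤ n / R * R := Nat.mul_le_mul_right R hl
      have h2 : n / R * R ≤ n := Nat.div_mul_le_self n R
      have h3 : (j + 1) * g = j * g + g := by ring
      have h4 : (l + 1) * R = l * R + R := by ring
      have ha : (l * R + o + j * g) + g ≤ n := by omega
      have hS := h (l * R + o + j * g) x ha
      set S := (Finset.univ.filter (fun y : Fin n => l * R + o + j * g ≤ y.1 ∧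
        y.1 < l * R + o + j * g + g ∧ τ y = τ x)) with hSdef
      let e := S.orderEmbOfCardLe hS
      refine ⟨fun w => if hw : w < q then e ⟨w, hw⟩ else x, fun _ _ => ⟨?_, ?_⟩⟩
      · intro w hw
        simp only [dif_pos hw]
        have hm : e ⟨w, hw⟩ ∈ S := Finset.orderEmbOfCardLe_mem S hS _
        rw [hSdef, Finset.mem_filter] at hm
        exact hm.2
      · intro w w' hw hw' heq
        simp only [dif_pos hw, dif_pos hw'] at heq
        have := e.injective heq
        exact congrArg Fin.val this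
    · exact ⟨fun _ => x, fun hl hj => absurd ⟨hl, hj⟩ hc⟩
  choose f hf using key
  refine ⟨fun w l j x => f l j x w, ?_, ?_⟩
  · intro w hw l j x hl hj
    exact (hf l j x hl hj).1 w hw
  · intro w w' l j x hw hw' hl hj heq
    exact (hf l j x hl hj).2 w w' hw hw' heq

/-- [Q5] the rounded matrix does not depend on the pick.  `funext x c`, `unfold Bm`, `by_cases c ∈ Del ..`; otherwise `zone_stable τ A R o z (blk n R x.1) hoz _ _ c ..`: both picked rows lie in `[l R + o, l R + o + g) ⊆ [l R + o, l R + o + z)` (`hpick l 0 x (blk_spec ..).1 (by simpa using hgz)`, `0 * g = 0`) and have the colour `τ x`. -/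
theorem Bm_indep (τ : Fin n → ℕ) (A : Fin n → Fin n → Bool) (R o z g : ℕ) (hR : 0 < R) (hRn : R ≤ n)
    (hoz : o + z ≤ R) (hgz : g ≤ z) (pick pick' : ℕ → ℕ → Fin n → Fin n)
    (hpick : IsPick n R o z g τ pick) (hpick' : IsPick n R o z g τ pick') :
    Bm A (Del τ A R o z) pick R = Bm A (Del τ A R o z) pick' R := by
  funext x c
  unfold Bm
  by_cases hc : c ∈ Del τ A R o z
  · rw [if_pos hc, if_pos hc]
  · rw [if_neg hc, if_neg hc]
    have hl := (blk_spec R x.1 hR hRn x.2).1
    have hg : (0 + 1) * g ≤ z := by simpa using hgz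
    obtain ⟨a1, a2, a3⟩ := hpick (blk n R x.1) 0 x hl hg
    obtain ⟨b1, b2, b3⟩ := hpick' (blk n R x.1) 0 x hl hg
    exact zone_stable τ A R o z (blk n R x.1) hoz _ _ c ⟨by omega, by omega⟩ ⟨by omega, by omega⟩
      (a3.trans b3.symm) hc

/-- [Q6] copy of the proof of `Syn37.lift_inj` (Syn37/Core.lean, line 562) with two picks (`Q1 Q2` come from `hpick'`). -/
theorem lift_inj2 (τ : Fin n → ℕ) (R o z2 g : ℕ) (hR : 0 < R) (hRn : R ≤ n)
    (hoz : o + k * z2 * g ≤ R) (pick pick' : ℕ → ℕ → Fin n → Fin n)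
    (hpick : IsPick n R o (k * z2 * g) g τ pick) (hpick' : IsPick n R o (k * z2 * g) g τ pick')
    (r r' : Fin k → Fin n) (u u' : Fin k → Fin z2) (i : Fin k)
    (h : lift pick R z2 r u i = lift pick' R z2 r' u' i) :
    blk n R (r i).1 = blk n R (r' i).1 ∧ u i = u' i := by
  unfold lift at h
  have hl := (blk_spec (n := n) R (r i).1 hR hRn (r i).2).1
  have hl' := (blk_spec (n := n) R (r' i).1 hR hRn (r' i).2).1
  have hq := idx_ok z2 g i (u i)
  have hq' := idx_ok z2 g i (u' i)
  obtain ⟨P1, P2, _⟩ := hpick _ _ (r i) hl hq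
  obtain ⟨Q1, Q2, _⟩ := hpick' _ _ (r' i) hl' hq'
  rw [← h] at Q1 Q2
  set l := blk n R (r i).1 with hldef
  set l' := blk n R (r' i).1 with hldef'
  set w := (pick l (i.1 * z2 + (u i).1) (r i)).1 with hw
  have e1 : (i.1 * z2 + (u i).1 + 1) * g = (i.1 * z2 + (u i).1) * g + g := by ring
  have e2 : (i.1 * z2 + (u' i).1 + 1) * g = (i.1 * z2 + (u' i).1) * g + g := by ring
  have e3 : (l + 1) * R = l * R + R := by ring
  have e4 : (l' + 1) * R = l' * R + R := by ring
  have b1 : blk n R w = l := blk_eq R l w hR hl (by omega) (by omega)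
  have b2 : blk n R w = l' := blk_eq R l' w hR hl' (by omega) (by omega)
  have hll : l = l' := b1.symm.trans b2
  refine ⟨hll, ?_⟩
  rw [← hll] at Q1 Q2
  apply Fin.ext
  rcases lt_trichotomy (u i).1 (u' i).1 with hlt | heq | hlt
  · exfalso
    have : (i.1 * z2 + (u i).1 + 1) * g ≤ (i.1 * z2 + (u' i).1) * g :=
      Nat.mul_le_mul_right g (by omega)
    omega
  · exact heq
  · exfalso
    have : (i.1 * z2 + (u' i).1 + 1) * g ≤ (i.1 * z2 + (u i).1) * g :=
      Nat.mul_le_mul_right g (by omega)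
    omega

/-- the pick that uses the `w i`-th pick in the `i`-th part of the zone -/
noncomputable def cpick {q : ℕ} (pk : ℕ → ℕ → ℕ → Fin n → Fin n) (z2 : ℕ) (w : Fin k → Fin q) :
    ℕ → ℕ → Fin n → Fin n :=
  fun l j x => pk (if h : j / z2 < k then (w ⟨j / z2, h⟩).1 else 0) l j x

/-- [Q7] `cpick` is a pick: the index `if .. then (w _).1 else 0` is `< q` in both cases (`split_ifs`, `Fin.is_lt`, `hq`); then `hpk _ this l j x hl hj`. -/
theorem cpick_isPick {q : ℕ} (τ : Fin n → ℕ) (R o z g z2 : ℕ) (hq : 1 ≤ q)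
    (pk : ℕ → ℕ → ℕ → Fin n → Fin n) (hpk : ∀ w, w < q → IsPick n R o z g τ (pk w))
    (w : Fin k → Fin q) : IsPick n R o z g τ (cpick pk z2 w) := by
  intro l j x hl hj
  have hlt : (if h : j / z2 < k then (w ⟨j / z2, h⟩).1 else 0) < q := by
    split_ifs with h
    · exact (w ⟨j / z2, h⟩).is_lt
    · exact hq
  exact hpk _ hlt l j x hl hj

/-- [Q8] `(i z2 + u) / z2 = i` for `u < z2` (`Nat.add_div_of_...`; simplest: `Nat.div_eq_of_lt_le` with `i * z2 ≤ i * z2 + u` and `i * z2 + u < (i + 1) * z2`), `dif_pos i.2`, `Fin.eta`. -/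
theorem lift_cpick {q : ℕ} (pk : ℕ → ℕ → ℕ → Fin n → Fin n) (R z2 : ℕ) (w : Fin k → Fin q)
    (r : Fin k → Fin n) (u : Fin k → Fin z2) (i : Fin k) :
    lift (cpick pk z2 w) R z2 r u i = pk (w i).1 (blk n R (r i).1) (i.1 * z2 + (u i).1) (r i) := by
  have hdiv : (i.1 * z2 + (u i).1) / z2 = i.1 := by
    apply Nat.div_eq_of_lt_le
    · exact Nat.le_add_right _ _
    · have := (u i).2
      have h2 : (i.1 + 1) * z2 = i.1 * z2 + z2 := by ring
      omega
  unfold lift cpick
  have hlt : (i.1 * z2 + (u i).1) / z2 < k := by rw [hdiv]; exact i.2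
  rw [dif_pos hlt]
  have hfin : (⟨(i.1 * z2 + (u i).1) / z2, hlt⟩ : Fin k) = i := Fin.ext hdiv
  rw [hfin]

/-- [Q9] TRANSFER with multiplicity `(z2 q)^k`.  Copy of the proof of `Syn37.transfer` (Syn37/Core.lean, line 602).  Injection of `kept ×ˢ (univ : Finset (Fin k → Fin z2)) ×ˢ (univ : Finset (Fin k → Fin q))` (card `kept.card * (z2^k * q^k)`, `mul_pow`) into `copies of A ×ˢ (univ : Finset (Fin k → Fin (2 R)))`:
`((r, c), u, w) ↦ ((lift (cpick pk z2 w) R z2 r u, c), fun i => ⟨(r i).1 - blk (r i) * R, _⟩)`.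
Into: `lift_isCopy H τ A R o z2 g hR hRn hoz (cpick pk z2 w) (cpick_isPick ..) r c _ hc u`, where the copy in `Bm .. (cpick ..)` comes from the copy in `Bm .. pick` by `Bm_indep` (rewrite; `g ≤ k z2 g`: if `z2 = 0` there is no `u`, use `(u i).2`/`Fin.pos`; `k > 0` from `i`; if `k = 0` everything is trivial: better do `rcases` on `k * z2 = 0`: then `Fin k → Fin z2` is empty or `k = 0`).
Injective: `lift_inj2` gives equal blocks and `u = u'`; equal relative positions give `r = r'` (as in `transfer`); then `lift_cpick` on both sides and `hinj` (with `idx_ok z2 g i (u i)`, `(blk_spec ..).1`) give `w i = w' i` (`Fin.ext`). -/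
theorem transfer' {q : ℕ} (H : Fin k → Fin k → Bool) (τ : Fin n → ℕ) (A : Fin n → Fin n → Bool)
    (R o z2 g : ℕ) (hR : 0 < R) (hRn : R ≤ n) (hoz : o + k * z2 * g ≤ R) (hq : 1 ≤ q) (hk : 0 < k) (hz2 : 0 < z2)
    (pick : ℕ → ℕ → Fin n → Fin n) (hpick : IsPick n R o (k * z2 * g) g τ pick)
    (pk : ℕ → ℕ → ℕ → Fin n → Fin n) (hpk : ∀ w, w < q → IsPick n R o (k * z2 * g) g τ (pk w))
    (hinj : ∀ (w w' l j : ℕ) (x : Fin n), w < q → w' < q → l < n / R → (j + 1) * g ≤ k * z2 * g →
        pk w l j x = pk w' l j x → w = w') :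
    (kept H (Bm A (Del τ A R o (k * z2 * g)) pick R) (Del τ A R o (k * z2 * g))).card * (z2 * q) ^ k ≤
      copyCount H A * (2 * R) ^ k := by
  rw [copyCount_eq_rcount]
  unfold rcount
  have hc1 : (univ : Finset (Fin k → Fin z2)).card = z2 ^ k := by
    rw [Finset.card_univ, Fintype.card_fun, Fintype.card_fin, Fintype.card_fin]
  have hc3 : (univ : Finset (Fin k → Fin q)).card = q ^ k := by
    rw [Finset.card_univ, Fintype.card_fun, Fintype.card_fin, Fintype.card_fin]
  have hc2 : (univ : Finset (Fin k → Fin (2 * R))).card = (2 * R) ^ k := by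
    rw [Finset.card_univ, Fintype.card_fun, Fintype.card_fin, Fintype.card_fin]
  rw [mul_pow, ← hc1, ← hc2, ← hc3, ← Finset.card_product, ← Finset.card_product,
    ← Finset.card_product]
  have hgz : g ≤ k * z2 * g := Nat.le_mul_of_pos_left g (Nat.mul_pos hk hz2)
  have hb : ∀ x : Fin n, x.1 - blk n R x.1 * R < 2 * R := by
    intro x
    have h := blk_spec (n := n) R x.1 hR hRn x.2
    omega
  apply Finset.card_le_card_of_injOn
    (fun p : ((Fin k → Fin n) × (Fin k → Fin n)) × (Fin k → Fin z2) × (Fin k → Fin q) =>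
      ((lift (cpick pk z2 p.2.2) R z2 p.1.1 p.2.1, p.1.2),
        fun i => (⟨(p.1.1 i).1 - blk n R (p.1.1 i).1 * R, hb (p.1.1 i)⟩ : Fin (2 * R))))
  · rintro ⟨⟨r, c⟩, u, w⟩ hp
    have hp1 := Finset.mem_coe.1 hp
    rw [Finset.mem_product] at hp1
    have hp2 := hp1.1
    unfold kept at hp2
    rw [Finset.mem_filter] at hp2
    have hcp := cpick_isPick τ R o (k * z2 * g) g z2 hq pk hpk w
    have hcopy := hp2.2.1
    rw [Bm_indep τ A R o (k * z2 * g) g hR hRn hoz hgz pick (cpick pk z2 w) hpick hcp] at hcopy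
    have h3 := lift_isCopy H τ A R o z2 g hR hRn hoz (cpick pk z2 w) hcp r c hcopy hp2.2.2 u
    apply Finset.mem_coe.2
    rw [Finset.mem_product, Finset.mem_filter]
    exact ⟨⟨Finset.mem_univ _, h3⟩, Finset.mem_univ _⟩
  · rintro ⟨⟨r, c⟩, u, w⟩ _ ⟨⟨r', c'⟩, u', w'⟩ _ heq
    simp only [Prod.mk.injEq] at heq
    obtain ⟨⟨h1, h2⟩, h3⟩ := heq
    have hcp := cpick_isPick τ R o (k * z2 * g) g z2 hq pk hpk w
    have hcp' := cpick_isPick τ R o (k * z2 * g) g z2 hq pk hpk w'
    have hi : ∀ i, r i = r' i ∧ u i = u' i := by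
      intro i
      have h4 := lift_inj2 τ R o z2 g hR hRn hoz _ _ hcp hcp' r r' u u' i (congrFun h1 i)
      refine ⟨?_, h4.2⟩
      have h5 := congrFun h3 i
      simp only [Fin.mk.injEq] at h5
      have h6 := blk_spec (n := n) R (r i).1 hR hRn (r i).2
      have h7 := blk_spec (n := n) R (r' i).1 hR hRn (r' i).2
      apply Fin.ext
      rw [h4.1] at h5 h6
      omega
    have hr : r = r' := funext fun i => (hi i).1
    have hu : u = u' := funext fun i => (hi i).2
    subst hr hu
    have hw : w = w' := by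
      funext i
      have h8 := congrFun h1 i
      rw [lift_cpick, lift_cpick] at h8
      apply Fin.ext
      exact hinj _ _ _ _ _ (w i).2 (w' i).2 (blk_spec (n := n) R (r i).1 hR hRn (r i).2).1
        (idx_ok z2 g i (u i)) h8
    rw [hw, h2]

end Vale.Agent.P037.Spr37
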