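import Mathlib
import Vale.Agent.P037.Defs
import Vale.Agent.P037.BlowCount
import Vale.Agent.P037.FewRows
import Vale.Agent.P037.TV
import Vale.Agent.P037.TVAll
import Vale.Agent.P037.TVRobust
import Vale.Agent.P037.Syn37.Defs
import Vale.Agent.P037.Syn37.Core
import Vale.Agent.P037.Syn37.Main
import Vale.Agent.P037.Spr37.Defs
import Vale.Agent.P037.Spr37.Core

/-! # P037 Spr37, part 2: parameters and assembly.  Everything is a power of `X = 16 T V M k`; the scale `g` is free (`X^(e+2) g ≤ n`). -/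

namespace Vale.Agent.P037.Spr37

open Vale.Agent.P037 Vale.Agent.P037.Syn37

open Finset

variable {k n : ℕ}

theorem const_le' (k X M : ℕ) (hk : 1 ≤ k) (h1 : 2 * k ≤ X) (h2 : 4 * M ≤ X) (h3 : 4 ≤ X) :
    2 * (2 * X ^ (2 * k + 2)) ^ (2 * k) * (4 * (X ^ ((2 * k + 3) * (2 * k) + 1 + 1) * M)) ^ k ≤
      X ^ (((2 * k + 3) * (2 * k) + 1 + 2) * (2 * k)) := by
  set e := (2 * k + 3) * (2 * k) + 1 with he
  have hX : 0 < X := by omega
  have hE := E_le_pow k X h1 (by omega)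
  rw [← he] at hE
  have a1 : 2 * (2 * X ^ (2 * k + 2)) ^ (2 * k) ≤ X ^ e := by
    refine le_trans ?_ hE
    apply Nat.mul_le_mul_right
    omega
  have a2 : 4 * (X ^ (e + 1) * M) ≤ X ^ (e + 2) := by
    have : X ^ (e + 2) = X * X ^ (e + 1) := by ring
    rw [this]
    calc 4 * (X ^ (e + 1) * M) = (4 * M) * X ^ (e + 1) := by ring
      _ ≤ X * X ^ (e + 1) := Nat.mul_le_mul_right _ h2
  have a3 : (4 * (X ^ (e + 1) * M)) ^ k ≤ X ^ ((e + 2) * k) := by
    rw [pow_mul]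
    exact Nat.pow_le_pow_left a2 _
  calc 2 * (2 * X ^ (2 * k + 2)) ^ (2 * k) * (4 * (X ^ (e + 1) * M)) ^ k
      ≤ X ^ e * X ^ ((e + 2) * k) := Nat.mul_le_mul a1 a3
    _ = X ^ (e + (e + 2) * k) := (pow_add _ _ _).symm
    _ ≤ X ^ ((e + 2) * (2 * k)) := by
        apply Nat.pow_le_pow_right hX
        have : (e + 2) * (2 * k) = (e + 2) * k + (e + 2) * k := by ring
        have h5 : e + 2 ≤ (e + 2) * k := Nat.le_mul_of_pos_right _ hk
        omega

theorem spr_large (H : Fin k → Fin k → Bool) (hk : 0 < k) (T V M g q n : ℕ) (τ : Fin n → ℕ)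
    (A : Fin n → Fin n → Bool) (hT : 1 ≤ T) (hV : 1 ≤ V) (hM : 1 ≤ M) (hg : 1 ≤ g) (hq : 1 ≤ q)
    (hgM : g ≤ M * q) (hspr : Spread τ g q)
    (hvar : classVar τ A ≤ V * n)
    (hfar : ∀ B : Fin n → Fin n → Bool, HFree H B → n ^ 2 ≤ T * diffCount A B)
    (hn : (16 * T * V * M * k) ^ ((2 * k + 3) * (2 * k) + 1 + 2) * g ≤ n) :
    n ^ (2 * k) ≤ 2 * (2 * (16 * T * V * M * k) ^ (2 * k + 2)) ^ (2 * k) *
      (4 * ((16 * T * V * M * k) ^ ((2 * k + 3) * (2 * k) + 1 + 1) * M)) ^ k * copyCount H A := by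
  obtain ⟨f1, f2, f3, f4, f5, f6, f7, f8⟩ := X_facts T V M k hT hV hM hk
  have f9 : 2 * V * k ≤ 16 * T * V * M * k :=
    le_trans (by
      calc 2 * V * k = 2 * V * k * 1 := (mul_one _).symm
        _ ≤ 2 * V * k * M := Nat.mul_le_mul_left _ hM) f4
  have hsyn : Syndetic τ g := syndetic_of_spread τ g q hq hspr
  obtain ⟨X, hXd⟩ : ∃ X : ℕ, X = 16 * T * V * M * k := ⟨_, rfl⟩
  rw [← hXd] at hn f1 f2 f3 f4 f5 f6 f7 f8 f9 ⊢
  have hE := E_le_pow k X f6 (by omega)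
  have he1 : 2 * k ≤ (2 * k + 3) * (2 * k) := Nat.le_mul_of_pos_left _ (by omega)
  obtain ⟨e, he⟩ : ∃ e : ℕ, e = (2 * k + 3) * (2 * k) + 1 := ⟨_, rfl⟩
  rw [← he] at hn hE ⊢
  have hXpos : 0 < X := by omega
  have hn' : X ^ (e + 2) ≤ n := le_trans (Nat.le_mul_of_pos_right _ hg) hn
  have hgn : g ≤ n := le_trans (Nat.le_mul_of_pos_left _ (Nat.pow_pos hXpos)) hn
  have hXn : X ≤ n := by
    calc X = X ^ 1 := (pow_one X).symm
      _ ≤ X ^ (e + 2) := Nat.pow_le_pow_right hXpos (by omega)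
      _ ≤ n := hn'
  have hD1n : X ^ (2 * k + 2) ≤ n :=
    (Nat.pow_le_pow_right hXpos (by omega)).trans hn'
  have hn0 : 0 < n := by omega
  obtain ⟨hR0, hRn, hXR, hnR⟩ := R_facts n X hXpos hXn
  obtain ⟨R, hRd⟩ : ∃ R : ℕ, R = n / X := ⟨_, rfl⟩
  rw [← hRd] at hR0 hRn hXR hnR
  have hYpos : 0 < X ^ (e + 1) * g := Nat.mul_pos (Nat.pow_pos hXpos) hg
  have hYR : X ^ (e + 1) * g ≤ R := by
    rw [hRd, Nat.le_div_iff_mul_le hXpos]
    calc X ^ (e + 1) * g * X = X ^ (e + 2) * g := by ring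
      _ ≤ n := hn
  obtain ⟨hz0, hYz, hRz⟩ := z_facts R (X ^ (e + 1) * g) hYpos hYR
  obtain ⟨z2, hz2d⟩ : ∃ z2 : ℕ, z2 = R / (X ^ (e + 1) * g) := ⟨_, rfl⟩
  rw [← hz2d] at hz0 hYz hRz
  have hXY : X ≤ X ^ (e + 1) := by
    calc X = X ^ 1 := (pow_one X).symm
      _ ≤ X ^ (e + 1) := Nat.pow_le_pow_right hXpos (by omega)
  have hXW : X ≤ X ^ e := by
    calc X = X ^ 1 := (pow_one X).symm
      _ ≤ X ^ e := Nat.pow_le_pow_right hXpos (by omega)
  have h2z : 2 * (k * z2 * g) ≤ R := by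
    calc 2 * (k * z2 * g) = (2 * k) * (g * z2) := by ring
      _ ≤ X ^ (e + 1) * (g * z2) := Nat.mul_le_mul_right _ (f6.trans hXY)
      _ = X ^ (e + 1) * g * z2 := by ring
      _ ≤ R := hYz
  have h2VWz : 2 * V * X ^ e * (k * z2 * g) ≤ R := by
    calc 2 * V * X ^ e * (k * z2 * g) = (2 * V * k) * (X ^ e * (g * z2)) := by ring
      _ ≤ X * (X ^ e * (g * z2)) := Nat.mul_le_mul_right _ f9
      _ = X ^ (e + 1) * g * z2 := by rw [pow_succ]; ring
      _ ≤ R := hYz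
  have hzR : k * z2 * g ≤ R := by omega
  obtain ⟨o, hoz, hoff⟩ := exists_offset τ A R (k * z2 * g) hzR
  obtain ⟨pick, hpick⟩ := exists_pick τ R o (k * z2 * g) g hoz hsyn
  obtain ⟨pk, hpk, hinj⟩ := exists_picks τ R o (k * z2 * g) g q hoz hspr
  have hdev := card_Del_le τ A R o (k * z2 * g)
  have hWev := W_ev_le R (k * z2 * g) _ _ V (X ^ e) n hR0 hoff hvar h2z h2VWz
  have hWd : X ^ e * (Del τ A R o (k * z2 * g)).card ≤ n :=
    (Nat.mul_le_mul_left _ hdev).trans hWev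
  have h4Td : 4 * T * (Del τ A R o (k * z2 * g)).card ≤ n :=
    (Nat.mul_le_mul_right _ (f7.trans hXW)).trans hWd
  have h2kFd : 2 * k * (2 * X ^ (2 * k + 2)) ^ (2 * k) * (Del τ A R o (k * z2 * g)).card ≤ n :=
    (Nat.mul_le_mul_right _ hE).trans hWd
  have hgz : g ≤ k * z2 * g := Nat.le_mul_of_pos_left _ (Nat.mul_pos hk hz0)
  have hdiff := diffCount_Bm_le τ A R o (k * z2 * g) g hR0 hRn hoz hgz
    (Del τ A R o (k * z2 * g)) pick hpick
  have h8 : 8 * T * V * R ≤ n := (Nat.mul_le_mul_right _ f1).trans hXR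
  have hclose := close_arith T V R _ _ _ n hdiff hvar h4Td h8
  have hfarB := TVB.far_of_close H A _ T hclose hfar
  have hcol := card_colours_le' τ g q M hq hgn hgM hspr
  have himg := card_image_Bm_le' τ A R o (k * z2 * g) g M hR0 hRn hoz hgz hcol pick hpick
  have himg2 : (univ.image (Bm A (Del τ A R o (k * z2 * g)) pick R)).card ≤ X ^ 2 := by
    refine himg.trans ?_
    calc n / R * M ≤ 2 * X * M := Nat.mul_le_mul_right _ hnR
      _ = X * (2 * M) := by ring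
      _ ≤ X * X := Nat.mul_le_mul_left _ f2
      _ = X ^ 2 := (sq X).symm
  have hmany := TVA.many_in_collapse H hk _ T (X ^ 2) hn0 himg2 hfarB
  have hD := D_le_pow T k X f3 (by omega)
  have hpow := pow_le_of_many k n _ (X ^ (2 * k + 2)) _ (Nat.succ_pos _) hD hD1n hmany
  have hkept := copyCount_le_kept H (Bm A (Del τ A R o (k * z2 * g)) pick R)
    (Del τ A R o (k * z2 * g)) hk
  have htr := transfer' H τ A R o z2 g hR0 hRn hoz hq hk hz0 pick hpick pk hpk hinj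
  have hRz' : R ≤ 2 * (X ^ (e + 1) * M) * (z2 * q) := by
    calc R ≤ 2 * (X ^ (e + 1) * g) * z2 := hRz
      _ = 2 * X ^ (e + 1) * z2 * g := by ring
      _ ≤ 2 * X ^ (e + 1) * z2 * (M * q) := Nat.mul_le_mul_left _ hgM
      _ = 2 * (X ^ (e + 1) * M) * (z2 * q) := by ring
  exact chain_arith k n _ _ _ _ (z2 * q) R (X ^ (e + 1) * M) _ hk hpow hkept h2kFd htr hRz'
    (Nat.mul_pos hz0 hq)

/-- FINAL (rows). -/
theorem spr_nat (H : Fin k → Fin k → Bool) (hk : 0 < k) :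
    ∃ K a : ℕ, ∀ (T V M g q n : ℕ) (τ : Fin n → ℕ) (A : Fin n → Fin n → Bool), 1 ≤ T → 1 ≤ V → 1 ≤ M →
      1 ≤ g → 1 ≤ q → g ≤ M * q → Spread τ g q → classVar τ A ≤ V * n →
      (∀ B : Fin n → Fin n → Bool, HFree H B → n ^ 2 ≤ T * diffCount A B) →
      K * (T * V * M) ^ a * g ≤ n →
      n ^ (2 * k) ≤ K * (T * V * M) ^ a * copyCount H A := by
  refine ⟨(16 * k) ^ (((2 * k + 3) * (2 * k) + 1 + 2) * (2 * k)),
    ((2 * k + 3) * (2 * k) + 1 + 2) * (2 * k), ?_⟩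
  intro T V M g q n τ A hT hV hM hg hq hgM hspr hvar hfar hn
  have hX := X_facts T V M k hT hV hM hk
  have eK : (16 * k) ^ (((2 * k + 3) * (2 * k) + 1 + 2) * (2 * k)) *
      (T * V * M) ^ (((2 * k + 3) * (2 * k) + 1 + 2) * (2 * k)) =
      (16 * T * V * M * k) ^ (((2 * k + 3) * (2 * k) + 1 + 2) * (2 * k)) := by
    rw [← mul_pow]
    congr 1
    ring
  rw [eK] at hn ⊢
  have hXpos : 0 < 16 * T * V * M * k := by
    have := hX.2.2.2.2.2.2.2
    omega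
  have hge : (16 * T * V * M * k) ^ ((2 * k + 3) * (2 * k) + 1 + 2) * g ≤ n := by
    refine le_trans (Nat.mul_le_mul_right _ ?_) hn
    apply Nat.pow_le_pow_right hXpos
    exact Nat.le_mul_of_pos_right _ (by omega)
  have h4M : 4 * M ≤ 16 * T * V * M * k := by
    have h1 : 1 ≤ T * V * k := Nat.mul_pos (Nat.mul_pos hT hV) hk
    calc 4 * M ≤ 16 * M := Nat.mul_le_mul_right _ (by norm_num)
      _ = 16 * M * 1 := (mul_one _).symm
      _ ≤ 16 * M * (T * V * k) := Nat.mul_le_mul_left _ h1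
      _ = 16 * T * V * M * k := by ring
  have h1 := spr_large H hk T V M g q n τ A hT hV hM hg hq hgM hspr hvar hfar hge
  have h2 := const_le' k (16 * T * V * M * k) M hk hX.2.2.2.2.2.1 h4M
    (le_trans (by norm_num) hX.2.2.2.2.2.2.2)
  exact h1.trans (Nat.mul_le_mul_right _ h2)

/-- column version -/
theorem spr_nat_cols (H : Fin k → Fin k → Bool) (hk : 0 < k) :
    ∃ K a : ℕ, ∀ (T V M g q n : ℕ) (τ : Fin n → ℕ) (A : Fin n → Fin n → Bool), 1 ≤ T → 1 ≤ V → 1 ≤ M →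
      1 ≤ g → 1 ≤ q → g ≤ M * q → Spread τ g q → classVar τ (fun j i => A i j) ≤ V * n →
      (∀ B : Fin n → Fin n → Bool, HFree H B → n ^ 2 ≤ T * diffCount A B) →
      K * (T * V * M) ^ a * g ≤ n →
      n ^ (2 * k) ≤ K * (T * V * M) ^ a * copyCount H A := by
  obtain ⟨K, a, h⟩ := spr_nat (fun j i => H i j) hk
  refine ⟨K, a, ?_⟩
  intro T V M g q n τ A hT hV hM hg hq hgM hspr hvar hfar hn
  have h1 := h T V M g q n τ (fun j i => A i j) hT hV hM hg hq hgM hspr hvar (fun B hB => by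
    have h1 := hfar (fun x y => B y x) (FR.hFree_transpose H B hB)
    have h2 := FR.diffCount_transpose A (fun x y => B y x)
    rw [← h2] at h1
    exact h1) hn
  rw [copyCount_eq_rcount, rcount_transpose, ← copyCount_eq_rcount] at h1
  exact h1

end Vale.Agent.P037.Spr37
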